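import Vale.Agent.P074.Upper
import Vale.Agent.P074.Lower

namespace Vale.Agent.Results.P074.SharpThird

open Vale.Agent.P074

theorem result : ∀ d : ℕ, 2 ≤ d → IsGreatest {α : ℝ | Admissible d α} (1 / 3) := by
  intro d hd
  refine ⟨admissible_third (by omega), fun α h => ?_⟩
  by_contra hα
  exact not_admissible hd (not_le.1 hα) h

end Vale.Agent.Results.P074.SharpThird
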